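import Vale.Agent.Lib.P061.Defs

namespace Vale.Agent.Lib.P061

open Set

variable {V E : Type*}

/-- A spanning tree of a loopless multigraph on a finite vertex set has `|V| - 1` edge copies. -/
theorem SpanTree.ncard_add_one [Fintype V] [Finite E] {ends : E → Sym2 V}
    (hl : ∀ e, ¬ (ends e).IsDiag) {T : Set E} (hT : SpanTree ends T) :
    T.ncard + 1 = Fintype.card V := by
  obtain ⟨hinj, htree⟩ := hT
  have h1 := (SimpleGraph.isTree_iff_connected_and_card.mp htree).2
  have h2 : (SimpleGraph.fromEdgeSet (ends '' T)).edgeSet = ends '' T := by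
    rw [SimpleGraph.edgeSet_fromEdgeSet]
    ext z
    constructor
    · intro hz; exact hz.1
    · intro hz
      refine ⟨hz, ?_⟩
      obtain ⟨e, -, rfl⟩ := hz
      exact hl e
  rw [h2, Nat.card_coe_set_eq, hinj.ncard_image, Nat.card_eq_fintype_card] at h1
  exact h1

/-- The two colour classes of a spanning tree: every tree edge crosses the cut `A`. -/
theorem SpanTree.exists_bipartition {ends : E → Sym2 V}
    (hl : ∀ e, ¬ (ends e).IsDiag) {T : Set E} (hT : SpanTree ends T) :
    ∃ A : Set V, cutIn ends T A = T := by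
  obtain ⟨-, htree⟩ := hT
  obtain ⟨c⟩ := htree.colorable_two
  refine ⟨{v | c v = 0}, ?_⟩
  ext e
  constructor
  · intro he; exact he.1
  · intro he
    refine ⟨he, ?_⟩
    have hd := hl e
    have hmem : ends e ∈ ends '' T := ⟨e, he, rfl⟩
    revert hd hmem
    refine Sym2.inductionOn (ends e) ?_
    intro a b hd hmem
    have hab : a ≠ b := fun h => hd (Sym2.mk_isDiag_iff.mpr h)
    have hadj : (SimpleGraph.fromEdgeSet (ends '' T)).Adj a b :=
      (SimpleGraph.fromEdgeSet_adj _).mpr ⟨hmem, hab⟩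
    have hc : c a ≠ c b := c.valid hadj
    by_cases ha : c a = 0
    · refine ⟨a, b, rfl, ha, ?_⟩
      intro hb
      exact hc (ha.trans hb.symm)
    · refine ⟨b, a, Sym2.eq_swap, ?_, ha⟩
      show c b = 0
      have h1 : ∀ x y : Fin 2, x ≠ y → x ≠ 0 → y = 0 := by decide
      exact h1 _ _ hc ha

/-- In a loopless multigraph on at least two vertices, every spanning tree `T` has a cut
(its bipartition) all of whose `|V| - 1` tree edges cross. -/
theorem SpanTree.exists_full_cut [Fintype V] [Finite E] {ends : E → Sym2 V}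
    (hl : ∀ e, ¬ (ends e).IsDiag) {T : Set E} (hT : SpanTree ends T)
    (hV : 2 ≤ Fintype.card V) :
    ∃ A : Set V, A.Nonempty ∧ A ≠ Set.univ ∧ (cutIn ends T A).ncard + 1 = Fintype.card V := by
  obtain ⟨A, hA⟩ := hT.exists_bipartition hl
  have hcard := hT.ncard_add_one hl
  have hne : T.Nonempty := by
    rw [← Set.ncard_pos (Set.toFinite T)]
    omega
  obtain ⟨e, he⟩ := hne
  rw [← hA] at he
  obtain ⟨-, a, b, -, ha, hb⟩ := he
  refine ⟨A, ⟨a, ha⟩, ?_, by rw [hA]; exact hcard⟩
  intro h
  exact hb (h ▸ Set.mem_univ b)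

end Vale.Agent.Lib.P061
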