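import Vale.Agent.Lib.P061.Basic

namespace Vale.Agent.Lib.P061

open Set

/-- The number of edges of the complete graph on `Fin n`. -/
noncomputable def completeSize (n : ℕ) : ℕ :=
  Fintype.card {z : Sym2 (Fin n) // ¬ z.IsDiag}

/-- The complete graph on `Fin n` as a multigraph: exactly one edge copy for every unordered
pair of distinct vertices (the edge copies are indexed through an enumeration of those pairs). -/
noncomputable def completeEnds (n : ℕ) : Fin (completeSize n) → Sym2 (Fin n) :=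
  fun e => ((Fintype.equivFin {z : Sym2 (Fin n) // ¬ z.IsDiag}).symm e).val

theorem completeEnds_loopless (n : ℕ) (e : Fin (completeSize n)) :
    ¬ (completeEnds n e).IsDiag :=
  ((Fintype.equivFin {z : Sym2 (Fin n) // ¬ z.IsDiag}).symm e).property

theorem completeEnds_injective (n : ℕ) : Function.Injective (completeEnds n) := by
  intro e f h
  have := Subtype.ext h
  exact (Fintype.equivFin {z : Sym2 (Fin n) // ¬ z.IsDiag}).symm.injective this

theorem completeEnds_range (n : ℕ) :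
    Set.range (completeEnds n) = {z : Sym2 (Fin n) | ¬ z.IsDiag} := by
  ext z
  constructor
  · rintro ⟨e, rfl⟩
    exact completeEnds_loopless n e
  · intro hz
    refine ⟨Fintype.equivFin {z : Sym2 (Fin n) // ¬ z.IsDiag} ⟨z, hz⟩, ?_⟩
    simp [completeEnds]

/-- In the complete graph every cut `S` has exactly `|S| * |Sᶜ|` edges. -/
theorem complete_cut_ncard (n : ℕ) (S : Set (Fin n)) :
    (cutIn (completeEnds n) Set.univ S).ncard = S.ncard * Sᶜ.ncard := by
  have h1 : cutIn (completeEnds n) Set.univ S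
      = completeEnds n ⁻¹' ((fun p : Fin n × Fin n => s(p.1, p.2)) '' (S ×ˢ Sᶜ)) := by
    ext e
    constructor
    · rintro ⟨-, a, b, hab, ha, hb⟩
      exact ⟨(a, b), ⟨ha, hb⟩, hab.symm⟩
    · rintro ⟨⟨a, b⟩, ⟨ha, hb⟩, hab⟩
      exact ⟨Set.mem_univ _, a, b, hab.symm, ha, hb⟩
  have h2 : (fun p : Fin n × Fin n => s(p.1, p.2)) '' (S ×ˢ Sᶜ) ⊆ Set.range (completeEnds n) := by
    rw [completeEnds_range]
    rintro _ ⟨⟨a, b⟩, ⟨ha, hb⟩, rfl⟩
    intro hd
    have : a = b := Sym2.mk_isDiag_iff.mp hd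
    exact hb (this ▸ ha)
  have h3 : Set.InjOn (fun p : Fin n × Fin n => s(p.1, p.2)) (S ×ˢ Sᶜ) := by
    rintro ⟨a, b⟩ ⟨ha, hb⟩ ⟨a', b'⟩ ⟨ha', hb'⟩ h
    rcases Sym2.eq_iff.mp h with ⟨h1, h2⟩ | ⟨h1, h2⟩
    · exact Prod.ext h1 h2
    · exact absurd (h1 ▸ ha) hb'
  rw [h1, Set.ncard_preimage_of_injective_subset_range (completeEnds_injective n) h2,
    h3.ncard_image, Set.ncard_prod]

/-- The complete graph on `n` vertices is `(n - 1)`-edge-connected. -/
theorem complete_edgeConn (n : ℕ) : EdgeConn (n - 1) (completeEnds n) := by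
  intro S hne hnu
  rw [complete_cut_ncard]
  have h1 : S.ncard + Sᶜ.ncard = n := by
    have := Set.ncard_add_ncard_compl S
    simpa using this
  have h2 : 0 < S.ncard := (Set.ncard_pos (Set.toFinite S)).mpr hne
  have h3 : 0 < Sᶜ.ncard := by
    rw [Set.ncard_pos (Set.toFinite _)]
    exact Set.nonempty_compl.mpr hnu
  obtain ⟨a, ha⟩ : ∃ a, S.ncard = a + 1 := ⟨S.ncard - 1, by omega⟩
  obtain ⟨b, hb⟩ : ∃ b, Sᶜ.ncard = b + 1 := ⟨Sᶜ.ncard - 1, by omega⟩
  rw [ha, hb] at h1 ⊢
  have : n - 1 = a + b + 1 := by omega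
  rw [this]
  nlinarith

/-- Every spanning tree of the complete graph on `n ≥ 2` vertices has a cut `A`, with
`|A| = a`, containing all `n - 1` tree edges and exactly `a * (n - a)` graph edges. -/
theorem complete_tree_cut (n : ℕ) (hn : 2 ≤ n) {T : Set (Fin (completeSize n))}
    (hT : SpanTree (completeEnds n) T) :
    ∃ A : Set (Fin n), A.Nonempty ∧ A ≠ Set.univ ∧ (cutIn (completeEnds n) T A).ncard + 1 = n ∧
      (cutIn (completeEnds n) Set.univ A).ncard = A.ncard * (n - A.ncard) := by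
  obtain ⟨A, hne, hnu, hc⟩ := hT.exists_full_cut (completeEnds_loopless n) (by simpa using hn)
  refine ⟨A, hne, hnu, by simpa using hc, ?_⟩
  rw [complete_cut_ncard]
  have h1 : A.ncard + Aᶜ.ncard = n := by
    have := Set.ncard_add_ncard_compl A
    simpa using this
  congr 1
  omega

/-- If a spanning tree of the complete graph on `n ≥ 2` vertices is `α`-thin then
`4 * (n - 1) ≤ α * n ^ 2`. -/
theorem complete_thin_lower (n : ℕ) (hn : 2 ≤ n) {T : Set (Fin (completeSize n))}
    (hT : SpanTree (completeEnds n) T) {α : ℝ} (hthin : Thin α (completeEnds n) T) :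
    4 * ((n : ℝ) - 1) ≤ α * (n : ℝ) ^ 2 := by
  obtain ⟨A, hne, hnu, hc, hg⟩ := complete_tree_cut n hn hT
  have h := hthin A hne hnu
  rw [hg] at h
  have hle : A.ncard ≤ n := by
    have := Set.ncard_add_ncard_compl A
    simp at this
    omega
  have h1 : ((cutIn (completeEnds n) T A).ncard : ℝ) = (n : ℝ) - 1 := by
    have : ((cutIn (completeEnds n) T A).ncard : ℝ) + 1 = (n : ℝ) := by exact_mod_cast hc
    linarith
  rw [h1] at h
  push_cast [Nat.cast_sub hle] at h
  set a : ℝ := (A.ncard : ℝ)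
  have hn' : (2 : ℝ) ≤ n := by exact_mod_cast hn
  have hpos : 0 < α := by
    by_contra hneg
    rw [not_lt] at hneg
    have ha0 : 0 ≤ a := Nat.cast_nonneg _
    have han : a ≤ n := by
      show (A.ncard : ℝ) ≤ (n : ℝ)
      exact_mod_cast hle
    have : α * (a * ((n : ℝ) - a)) ≤ 0 :=
      mul_nonpos_of_nonpos_of_nonneg hneg (mul_nonneg ha0 (by linarith))
    linarith
  have hq : a * ((n : ℝ) - a) ≤ (n : ℝ) ^ 2 / 4 := by nlinarith [sq_nonneg (2 * a - n)]
  have : α * (a * ((n : ℝ) - a)) ≤ α * ((n : ℝ) ^ 2 / 4) :=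
    mul_le_mul_of_nonneg_left hq hpos.le
  linarith

end Vale.Agent.Lib.P061
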