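import Mathlib

namespace Vale.Agent.Lib.P061

open SimpleGraph

variable {V : Type*}

/-- If every edge of a connected graph `U` joins two `H`-reachable vertices, then `H` is
connected. -/
theorem connected_of_adj_reachable {U H : SimpleGraph V} (hU : U.Connected)
    (h : ∀ a b, U.Adj a b → H.Reachable a b) : H.Connected := by
  haveI := hU.nonempty
  refine ⟨fun a b => ?_⟩
  have hab := hU.preconnected a b
  rw [reachable_iff_reflTransGen] at hab
  induction hab with
  | refl => exact Reachable.refl _
  | tail _ hadj ih => exact ih.trans (h _ _ hadj)

/-- A graph `H` below a connected graph `U` with at most `j + 1` connected components becomes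
connected after adding at most `j` edges of `U`. -/
theorem exists_connectors [Finite V] {U : SimpleGraph V} (hU : U.Connected) :
    ∀ (j : ℕ) (H : SimpleGraph V), H ≤ U → Nat.card H.ConnectedComponent ≤ j + 1 →
      ∃ L : Set (Sym2 V), L ⊆ U.edgeSet ∧ L.ncard ≤ j ∧
        (H ⊔ SimpleGraph.fromEdgeSet L).Connected := by
  intro j
  induction j with
  | zero =>
    intro H _ hcard
    refine ⟨∅, Set.empty_subset _, by simp, ?_⟩
    haveI := hU.nonempty
    have hsub : Subsingleton H.ConnectedComponent :=
      Finite.card_le_one_iff_subsingleton.mp (by simpa using hcard)
    have hH : H.Connected := by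
      refine ⟨fun a b => ?_⟩
      exact ConnectedComponent.exact (Subsingleton.elim _ _)
    simpa using hH
  | succ j ih =>
    intro H hHU hcard
    by_cases hconn : H.Connected
    · exact ⟨∅, Set.empty_subset _, by simp, by simpa using hconn⟩
    · have hex : ∃ a b, U.Adj a b ∧ ¬ H.Reachable a b := by
        by_contra hno
        apply hconn
        apply connected_of_adj_reachable hU
        intro a b hab
        by_contra hr
        exact hno ⟨a, b, hab, hr⟩
      obtain ⟨a, b, hab, hnr⟩ := hex
      set H' : SimpleGraph V := H ⊔ SimpleGraph.fromEdgeSet {s(a, b)} with hH'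
      have hle : H ≤ H' := le_sup_left
      have hzU : s(a, b) ∈ U.edgeSet := (mem_edgeSet U).mpr hab
      have hH'U : H' ≤ U := by
        refine sup_le hHU ?_
        rw [SimpleGraph.fromEdgeSet_le]
        intro z hz
        have : z = s(a, b) := hz.1
        rw [this]
        exact hzU
      have hadj' : H'.Adj a b := by
        rw [hH', sup_adj]
        right
        rw [fromEdgeSet_adj]
        exact ⟨rfl, hab.ne⟩
      have hlt : Nat.card H'.ConnectedComponent < Nat.card H.ConnectedComponent := by
        classical
        haveI : Fintype H.ConnectedComponent := Fintype.ofFinite _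
        haveI : Fintype H'.ConnectedComponent := Fintype.ofFinite _
        rw [Nat.card_eq_fintype_card, Nat.card_eq_fintype_card]
        refine Fintype.card_lt_of_surjective_not_injective
          (ConnectedComponent.map (Hom.ofLE hle)) (ConnectedComponent.surjective_map_ofLE hle) ?_
        intro hinj
        apply hnr
        apply ConnectedComponent.exact
        apply hinj
        rw [ConnectedComponent.map_mk, ConnectedComponent.map_mk]
        exact ConnectedComponent.sound hadj'.reachable
      obtain ⟨L', hL'U, hL'card, hL'conn⟩ := ih H' hH'U (by omega)
      refine ⟨insert s(a, b) L', ?_, ?_, ?_⟩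
      · intro z hz
        rcases Set.mem_insert_iff.mp hz with h | h
        · rw [h]; exact hzU
        · exact hL'U h
      · have hfin : L'.Finite := Set.toFinite _
        have := Set.ncard_insert_le s(a, b) L'
        omega
      · have : H ⊔ SimpleGraph.fromEdgeSet (insert s(a, b) L')
            = H' ⊔ SimpleGraph.fromEdgeSet L' := by
          rw [hH', Set.insert_eq, fromEdgeSet_union, sup_assoc]
        rw [this]
        exact hL'conn

end Vale.Agent.Lib.P061
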