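import Mathlib

/-!
Finite loopless multigraphs, cuts, edge connectivity, spanning trees and thinness.

A multigraph on a vertex type `V` with edge-copy type `E` is given by its endpoint map
`ends : E → Sym2 V`; it is loopless when no `ends e` is a diagonal pair.  Parallel edges are
distinct elements of `E` with the same endpoints.
-/

namespace Vale.Agent.Lib.P061

variable {V E : Type*}

/-- `cutIn ends F S`: the edge copies in `F` having exactly one endpoint in `S`. -/
def cutIn (ends : E → Sym2 V) (F : Set E) (S : Set V) : Set E :=
  {e | e ∈ F ∧ ∃ a b, ends e = s(a, b) ∧ a ∈ S ∧ b ∉ S}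

/-- `k`-edge-connected: every nonempty proper vertex set is left by at least `k` edge copies. -/
def EdgeConn (k : ℕ) (ends : E → Sym2 V) : Prop :=
  ∀ S : Set V, S.Nonempty → S ≠ Set.univ → k ≤ (cutIn ends Set.univ S).ncard

/-- `T` is a spanning tree: its edge copies are pairwise non-parallel and the simple graph
on `V` that they form is a tree (connected and acyclic). -/
def SpanTree (ends : E → Sym2 V) (T : Set E) : Prop :=
  Set.InjOn ends T ∧ (SimpleGraph.fromEdgeSet (ends '' T)).IsTree

/-- `T` is `α`-thin: it contains at most an `α` fraction of the edge copies of every cut. -/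
def Thin (α : ℝ) (ends : E → Sym2 V) (T : Set E) : Prop :=
  ∀ S : Set V, S.Nonempty → S ≠ Set.univ →
    ((cutIn ends T S).ncard : ℝ) ≤ α * ((cutIn ends Set.univ S).ncard : ℝ)

end Vale.Agent.Lib.P061
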