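import Vale.Agent.Lib.P061.Defs

namespace Vale.Agent.Lib.P061

variable {V E : Type*}

/-- The multiplicity of the pair `z`: the number of edge copies with endpoints `z`. -/
noncomputable def mult (ends : E → Sym2 V) (z : Sym2 V) : ℕ := {e | ends e = z}.ncard

/-- The simple graph on the vertices whose edges are the pairs `{a, b}` of distinct vertices
joined by at least `k / γ` parallel edge copies, that is, with `k ≤ γ * mult {a, b}`. -/
def heavyGraph (ends : E → Sym2 V) (k : ℕ) (γ : ℝ) : SimpleGraph V where
  Adj a b := a ≠ b ∧ (k : ℝ) ≤ γ * mult ends s(a, b)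
  symm := ⟨fun a b h => ⟨h.1.symm, by rw [Sym2.eq_swap]; exact h.2⟩⟩
  loopless := ⟨fun a h => h.1 rfl⟩

end Vale.Agent.Lib.P061
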