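import Vale.Agent.Lib.P061.Basic
import Vale.Agent.Lib.P061.Connectors
import Vale.Agent.Lib.P061.HeavyDefs

namespace Vale.Agent.Lib.P061

open SimpleGraph

variable {V E : Type*}

theorem mult_pos_iff [Finite E] (ends : E → Sym2 V) (z : Sym2 V) :
    0 < mult ends z ↔ ∃ e, ends e = z := by
  unfold mult
  rw [Set.ncard_pos (Set.toFinite _)]
  rfl

/-- Counting whole parallel classes: if the classes of the (pairwise non-parallel) edge copies in
`A` all lie in `D` and each has at least `c` copies, then `c * |A| ≤ |D|`. -/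
theorem fiber_count [Finite E] (ends : E → Sym2 V) (A D : Set E) (hinj : Set.InjOn ends A)
    (hfib : ∀ e ∈ A, ∀ e', ends e' = ends e → e' ∈ D) (c : ℝ)
    (hc : ∀ e ∈ A, c ≤ mult ends (ends e)) : c * A.ncard ≤ D.ncard := by
  classical
  haveI : Fintype E := Fintype.ofFinite E
  set A' : Finset E := (Set.toFinite A).toFinset with hA'
  set D' : Finset E := (Set.toFinite D).toFinset with hD'
  have hAc : A.ncard = A'.card := Set.ncard_eq_toFinset_card A (Set.toFinite A)
  have hDc : D.ncard = D'.card := Set.ncard_eq_toFinset_card D (Set.toFinite D)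
  have hmemA : ∀ e, e ∈ A' ↔ e ∈ A := fun e => Set.Finite.mem_toFinset _
  have hmemD : ∀ e, e ∈ D' ↔ e ∈ D := fun e => Set.Finite.mem_toFinset _
  set F : E → Finset E := fun e => Finset.univ.filter (fun e' => ends e' = ends e) with hF
  have hFcard : ∀ e, (F e).card = mult ends (ends e) := by
    intro e
    unfold mult
    rw [← Set.ncard_coe_finset]
    congr 1
    ext e'
    simp [hF]
  have hdisj : (A' : Set E).PairwiseDisjoint F := by
    intro e he e' he' hne
    rw [Function.onFun, Finset.disjoint_left]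
    intro x hx hx'
    simp only [hF, Finset.mem_filter, Finset.mem_univ, true_and] at hx hx'
    apply hne
    exact hinj ((hmemA e).mp he) ((hmemA e').mp he') (hx.symm.trans hx')
  have hsub : A'.biUnion F ⊆ D' := by
    intro x hx
    rw [Finset.mem_biUnion] at hx
    obtain ⟨e, he, hxe⟩ := hx
    simp only [hF, Finset.mem_filter, Finset.mem_univ, true_and] at hxe
    exact (hmemD x).mpr (hfib e ((hmemA e).mp he) x hxe)
  have h1 : ∑ e ∈ A', (F e).card ≤ D'.card := by
    rw [← Finset.card_biUnion hdisj]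
    exact Finset.card_le_card hsub
  have h2 : c * A'.card ≤ ∑ e ∈ A', ((F e).card : ℝ) := by
    rw [mul_comm, ← nsmul_eq_mul, ← Finset.sum_const]
    apply Finset.sum_le_sum
    intro e he
    rw [hFcard]
    exact hc e ((hmemA e).mp he)
  rw [hAc, hDc]
  calc c * (A'.card : ℝ) ≤ ∑ e ∈ A', ((F e).card : ℝ) := h2
    _ = ((∑ e ∈ A', (F e).card : ℕ) : ℝ) := by push_cast; rfl
    _ ≤ (D'.card : ℝ) := by exact_mod_cast h1

/-- Monotonicity of thinness in the parameter. -/
theorem Thin.mono {ends : E → Sym2 V} {T : Set E} {α β : ℝ} (h : Thin α ends T) (hαβ : α ≤ β) :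
    Thin β ends T := by
  intro S hne hnu
  refine (h S hne hnu).trans ?_
  exact mul_le_mul_of_nonneg_right hαβ (Nat.cast_nonneg _)

/-- The heavy-forest lemma.  Let `G` be `k`-edge-connected, let `H` be a simple graph all of whose
edges are pairs of multiplicity at least `k / γ` in `G`, and let `L` be a set of pairs joined by
at least one edge copy such that `H` together with `L` is connected.  Then `G` has a
`((γ + |L|) / k)`-thin spanning tree. -/
theorem exists_thin_of_heavy [Fintype V] [Finite E] {ends : E → Sym2 V} {k : ℕ} (hk : 1 ≤ k)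
    (hconn : EdgeConn k ends) {γ : ℝ} (hγ : 0 ≤ γ)
    (H : SimpleGraph V) (hH : ∀ a b, H.Adj a b → (k : ℝ) ≤ γ * mult ends s(a, b))
    (L : Set (Sym2 V)) (hL : L ⊆ Set.range ends)
    (hHL : (H ⊔ SimpleGraph.fromEdgeSet L).Connected) :
    ∃ T : Set E, SpanTree ends T ∧ Thin ((γ + L.ncard) / k) ends T := by
  obtain ⟨T', hT'le, hT'tree⟩ := hHL.exists_isTree_le
  have hkpos : (0 : ℝ) < k := by exact_mod_cast hk
  have hHex : ∀ a b, H.Adj a b → ∃ e, ends e = s(a, b) := by
    intro a b hab
    rw [← mult_pos_iff]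
    by_contra h0
    have h0' : mult ends s(a, b) = 0 := by omega
    have := hH a b hab
    rw [h0'] at this
    simp at this
    linarith
  have hedge : ∀ z ∈ T'.edgeSet, z ∈ H.edgeSet ∨ z ∈ L := by
    intro z hz
    have hz' : z ∈ (H ⊔ SimpleGraph.fromEdgeSet L).edgeSet := edgeSet_subset_edgeSet.mpr hT'le hz
    rw [edgeSet_sup, edgeSet_fromEdgeSet] at hz'
    rcases hz' with h | h
    · exact Or.inl h
    · exact Or.inr h.1
  have hHex' : ∀ z, z ∈ H.edgeSet → ∃ e, ends e = z := by
    intro z
    refine Sym2.inductionOn z ?_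
    intro a b h
    exact hHex a b ((mem_edgeSet H).mp h)
  have hpick : ∀ z : T'.edgeSet, ∃ e, ends e = z.val := by
    rintro ⟨z, hz⟩
    rcases hedge z hz with h | h
    · exact hHex' z h
    · exact hL h
  choose pick hpickspec using hpick
  set T : Set E := Set.range pick with hTdef
  have hinj : Set.InjOn ends T := by
    rintro _ ⟨z, rfl⟩ _ ⟨z', rfl⟩ h
    rw [hpickspec, hpickspec] at h
    rw [Subtype.ext h]
  have himage : ends '' T = T'.edgeSet := by
    ext z
    constructor
    · rintro ⟨_, ⟨w, rfl⟩, rfl⟩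
      rw [hpickspec]
      exact w.property
    · intro hz
      exact ⟨pick ⟨z, hz⟩, ⟨⟨z, hz⟩, rfl⟩, hpickspec ⟨z, hz⟩⟩
  have hspan : SpanTree ends T := by
    refine ⟨hinj, ?_⟩
    rw [himage, fromEdgeSet_edgeSet]
    exact hT'tree
  refine ⟨T, hspan, ?_⟩
  intro S hne hnu
  have hd := hconn S hne hnu
  set D := cutIn ends Set.univ S with hD
  set C := cutIn ends T S with hC
  have hLfin : L.Finite := (Set.finite_range ends).subset hL
  set CL : Set E := {e | e ∈ C ∧ ends e ∈ L} with hCL
  set CH : Set E := {e | e ∈ C ∧ ends e ∉ L} with hCH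
  have hCsub : C ⊆ CL ∪ CH := by
    intro e he
    by_cases h : ends e ∈ L
    · exact Or.inl ⟨he, h⟩
    · exact Or.inr ⟨he, h⟩
  have hC1 : C.ncard ≤ CL.ncard + CH.ncard :=
    (Set.ncard_le_ncard hCsub (Set.toFinite _)).trans (Set.ncard_union_le _ _)
  have hCL1 : CL.ncard ≤ L.ncard := by
    refine Set.ncard_le_ncard_of_injOn ends (fun e he => he.2) ?_ hLfin
    intro e he e' he' h
    exact hinj he.1.1 he'.1.1 h
  have hCH1 : (k : ℝ) * CH.ncard ≤ γ * D.ncard := by
    by_cases hγ0 : γ = 0
    · -- then no heavy edges exist at all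
      have hempty : CH = ∅ := by
        rw [Set.eq_empty_iff_forall_notMem]
        rintro e ⟨⟨heT, a, b, hab, -, -⟩, hnL⟩
        obtain ⟨w, rfl⟩ := heT
        rcases hedge w.val w.property with h | h
        · rw [hpickspec] at hab
          rw [hab] at h
          have := hH a b ((mem_edgeSet H).mp h)
          rw [hγ0] at this
          simp at this
          linarith
        · rw [hpickspec] at hnL
          exact hnL h
      rw [hempty, hγ0]
      simp
    · have hγpos : 0 < γ := lt_of_le_of_ne hγ (Ne.symm hγ0)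
      have key := fiber_count ends CH D (fun e he e' he' h => hinj he.1.1 he'.1.1 h) ?_
        ((k : ℝ) / γ) ?_
      · rw [div_mul_eq_mul_div, div_le_iff₀ hγpos] at key
        linarith
      · rintro e ⟨⟨-, a, b, hab, ha, hb⟩, -⟩ e' he'
        exact ⟨Set.mem_univ _, a, b, he'.trans hab, ha, hb⟩
      · rintro e ⟨⟨heT, a, b, hab, -, -⟩, hnL⟩
        obtain ⟨w, rfl⟩ := heT
        rw [div_le_iff₀ hγpos]
        rcases hedge w.val w.property with h | h
        · rw [hpickspec] at hab
          rw [hab] at h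
          have := hH a b ((mem_edgeSet H).mp h)
          rw [hpickspec, hab]
          linarith
        · rw [hpickspec] at hnL
          exact absurd h hnL
  have hd' : (k : ℝ) ≤ D.ncard := by exact_mod_cast hd
  have hC1' : (C.ncard : ℝ) ≤ CL.ncard + CH.ncard := by exact_mod_cast hC1
  have hCL1' : (CL.ncard : ℝ) ≤ L.ncard := by exact_mod_cast hCL1
  have hLnn : (0 : ℝ) ≤ L.ncard := Nat.cast_nonneg _
  have hCHnn : (0 : ℝ) ≤ CH.ncard := Nat.cast_nonneg _
  rw [div_mul_eq_mul_div, le_div_iff₀ hkpos]
  have h1 : (C.ncard : ℝ) * k ≤ (L.ncard : ℝ) * k + (k : ℝ) * CH.ncard := by nlinarith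
  have h2 : (L.ncard : ℝ) * k ≤ (L.ncard : ℝ) * D.ncard :=
    mul_le_mul_of_nonneg_left hd' hLnn
  nlinarith

end Vale.Agent.Lib.P061
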