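import Vale.Agent.Lib.P061.Heavy

namespace Vale.Agent.Lib.P061

open SimpleGraph

variable {V E : Type*}

/-- A `1`-edge-connected multigraph has a connected underlying simple graph. -/
theorem underlying_connected [Nonempty V] [Finite E] {ends : E → Sym2 V} {k : ℕ} (hk : 1 ≤ k)
    (hconn : EdgeConn k ends) : (SimpleGraph.fromEdgeSet (Set.range ends)).Connected := by
  rw [connected_iff_exists_forall_reachable]
  obtain ⟨v0⟩ := ‹Nonempty V›
  refine ⟨v0, ?_⟩
  by_contra hnot
  rw [not_forall] at hnot
  obtain ⟨w0, hw0⟩ := hnot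
  set S : Set V := {w | (SimpleGraph.fromEdgeSet (Set.range ends)).Reachable v0 w} with hS
  have hne : S.Nonempty := ⟨v0, Reachable.refl v0⟩
  have hnu : S ≠ Set.univ := by
    intro h
    exact hw0 (h ▸ Set.mem_univ w0 : w0 ∈ S)
  have h1 := hconn S hne hnu
  have h2 : (cutIn ends Set.univ S).Nonempty := by
    rw [← Set.ncard_pos (Set.toFinite _)]
    omega
  obtain ⟨e, -, a, b, hab, ha, hb⟩ := h2
  apply hb
  have hne' : a ≠ b := fun h => hb (h ▸ ha)
  have hadj : (SimpleGraph.fromEdgeSet (Set.range ends)).Adj a b := by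
    rw [fromEdgeSet_adj]
    exact ⟨⟨e, hab⟩, hne'⟩
  exact Reachable.trans ha hadj.reachable

theorem heavyGraph_le [Finite E] (ends : E → Sym2 V) {k : ℕ} (hk : 1 ≤ k) (γ : ℝ) :
    heavyGraph ends k γ ≤ SimpleGraph.fromEdgeSet (Set.range ends) := by
  intro a b hab
  rw [fromEdgeSet_adj]
  refine ⟨?_, hab.1⟩
  have hkpos : (0 : ℝ) < k := by exact_mod_cast hk
  have h2 := hab.2
  have : 0 < mult ends s(a, b) := by
    by_contra h0
    have h0' : mult ends s(a, b) = 0 := by omega
    rw [h0'] at h2
    simp at h2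
    linarith
  exact (mult_pos_iff ends _).mp this

/-- In a `k`-edge-connected multigraph with a vertex cover `X` of at most `c` vertices, every
vertex outside `X` is joined to some vertex of `X` by at least `k / c` parallel edge copies. -/
theorem exists_heavy_to_cover [Fintype V] [Finite E] {ends : E → Sym2 V} {k c : ℕ}
    (hk : 1 ≤ k) (hV : 2 ≤ Fintype.card V) (hconn : EdgeConn k ends) (X : Set V)
    (hX : ∀ e, ∃ a ∈ X, a ∈ ends e) (hc : X.ncard ≤ c) (v : V) (hv : v ∉ X) :
    ∃ x ∈ X, (heavyGraph ends k c).Adj v x := by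
  classical
  haveI : Fintype E := Fintype.ofFinite E
  have hne : ({v} : Set V).Nonempty := ⟨v, rfl⟩
  have hnu : ({v} : Set V) ≠ Set.univ := by
    intro h
    have h1 : ({v} : Set V).ncard = 1 := Set.ncard_singleton v
    rw [h, Set.ncard_univ, Nat.card_eq_fintype_card] at h1
    omega
  have hdeg := hconn {v} hne hnu
  set D := cutIn ends Set.univ ({v} : Set V) with hD
  set X' : Finset V := (Set.toFinite X).toFinset with hX'
  have hX'card : X'.card = X.ncard := (Set.ncard_eq_toFinset_card X (Set.toFinite X)).symm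
  have hmemX : ∀ x, x ∈ X' ↔ x ∈ X := fun x => Set.Finite.mem_toFinset _
  set F : V → Finset E := fun x => Finset.univ.filter (fun e => ends e = s(v, x)) with hF
  have hFcard : ∀ x, (F x).card = mult ends s(v, x) := by
    intro x
    unfold mult
    rw [← Set.ncard_coe_finset]
    congr 1
    ext e
    simp [hF]
  have hsub : (Set.toFinite D).toFinset ⊆ X'.biUnion F := by
    intro e he
    rw [Set.Finite.mem_toFinset] at he
    obtain ⟨-, a, b, hab, ha, hb⟩ := he
    have hav : a = v := ha
    obtain ⟨x, hxX, hxe⟩ := hX e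
    rw [hab, Sym2.mem_iff] at hxe
    have hxb : x = b := by
      rcases hxe with h | h
      · exact absurd (by rw [← hav, ← h]; exact hxX : v ∈ X) hv
      · exact h
    rw [Finset.mem_biUnion]
    refine ⟨b, (hmemX b).mpr (hxb ▸ hxX), ?_⟩
    simp only [hF, Finset.mem_filter, Finset.mem_univ, true_and]
    rw [hab, hav]
  have h1 : D.ncard ≤ ∑ x ∈ X', mult ends s(v, x) := by
    rw [Set.ncard_eq_toFinset_card D (Set.toFinite D)]
    refine (Finset.card_le_card hsub).trans ?_
    refine Finset.card_biUnion_le.trans ?_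
    exact le_of_eq (Finset.sum_congr rfl (fun x _ => hFcard x))
  by_contra hno
  have hlt : ∀ x ∈ X', c * mult ends s(v, x) < k := by
    intro x hx
    by_contra hge
    rw [not_lt] at hge
    apply hno
    refine ⟨x, (hmemX x).mp hx, ?_, ?_⟩
    · intro h
      exact hv (h ▸ (hmemX x).mp hx)
    · exact_mod_cast hge
  have hXne : X'.Nonempty := by
    by_contra hempty
    rw [Finset.not_nonempty_iff_eq_empty] at hempty
    rw [hempty] at h1
    simp at h1
    omega
  have h2 : ∑ x ∈ X', c * mult ends s(v, x) < ∑ _x ∈ X', k :=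
    Finset.sum_lt_sum_of_nonempty hXne hlt
  rw [← Finset.mul_sum, Finset.sum_const, smul_eq_mul, hX'card] at h2
  have h3 : c * D.ncard ≤ c * ∑ x ∈ X', mult ends s(v, x) := Nat.mul_le_mul_left c h1
  have h4 : X.ncard * k ≤ c * k := Nat.mul_le_mul_right k hc
  have h5 : c * k ≤ c * D.ncard := Nat.mul_le_mul_left c hdeg
  omega

/-- Strong thin trees for bounded vertex cover number: a `k`-edge-connected multigraph with a
vertex cover of at most `c` vertices has a `((2 c - 1) / k)`-thin spanning tree. -/
theorem exists_thin_of_vertexCover [Fintype V] [Finite E] {ends : E → Sym2 V} {k c : ℕ}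
    (hk : 1 ≤ k) (hV : 2 ≤ Fintype.card V) (hconn : EdgeConn k ends) (X : Set V)
    (hX : ∀ e, ∃ a ∈ X, a ∈ ends e) (hc : X.ncard ≤ c) :
    ∃ T : Set E, SpanTree ends T ∧ Thin ((2 * (c : ℝ) - 1) / k) ends T := by
  haveI : Nonempty V := Fintype.card_pos_iff.mp (by omega)
  have hU := underlying_connected hk hconn
  set H := heavyGraph ends k (c : ℝ) with hH
  have hHU : H ≤ SimpleGraph.fromEdgeSet (Set.range ends) := heavyGraph_le ends hk _
  have hheavy := exists_heavy_to_cover hk hV hconn X hX hc
  -- the components of `H` are covered by `X`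
  have hsurj : Function.Surjective (fun x : X => H.connectedComponentMk x.val) := by
    intro C
    induction C using ConnectedComponent.ind with
    | _ v =>
      by_cases hv : v ∈ X
      · exact ⟨⟨v, hv⟩, rfl⟩
      · obtain ⟨x, hxX, hadj⟩ := hheavy v hv
        exact ⟨⟨x, hxX⟩, (ConnectedComponent.sound hadj.reachable).symm⟩
  have hcomp : Nat.card H.ConnectedComponent ≤ X.ncard := by
    rw [← Nat.card_coe_set_eq]
    exact Nat.card_le_card_of_surjective _ hsurj
  have hXpos : 0 < X.ncard := by
    obtain ⟨v⟩ := ‹Nonempty V›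
    rw [Set.ncard_pos (Set.toFinite X)]
    by_cases hv : v ∈ X
    · exact ⟨v, hv⟩
    · obtain ⟨x, hxX, -⟩ := hheavy v hv
      exact ⟨x, hxX⟩
  obtain ⟨j, hj⟩ : ∃ j, c = j + 1 := ⟨c - 1, by omega⟩
  obtain ⟨L, hLU, hLcard, hLconn⟩ := exists_connectors hU j H hHU (by omega)
  have hLrange : L ⊆ Set.range ends := by
    intro z hz
    have := hLU hz
    rw [edgeSet_fromEdgeSet] at this
    exact this.1
  have hHheavy : ∀ a b, H.Adj a b → (k : ℝ) ≤ (c : ℝ) * mult ends s(a, b) := fun a b h => h.2
  obtain ⟨T, hT, hthin⟩ := exists_thin_of_heavy hk hconn (Nat.cast_nonneg c) H hHheavy L hLrange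
    hLconn
  refine ⟨T, hT, hthin.mono ?_⟩
  have hkpos : (0 : ℝ) < k := by exact_mod_cast hk
  apply div_le_div_of_nonneg_right _ hkpos.le
  have : (L.ncard : ℝ) ≤ j := by exact_mod_cast hLcard
  have hcj : (c : ℝ) = j + 1 := by rw [hj]; push_cast; ring
  linarith

end Vale.Agent.Lib.P061

namespace Vale.Agent.Lib.P061

open SimpleGraph

variable {V E : Type*}

/-- Heavy-forest criterion: if the graph of pairs of multiplicity at least `k / γ` has at most
`c + 1` connected components, then a `k`-edge-connected multigraph has a `((γ + c) / k)`-thin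
spanning tree. -/
theorem exists_thin_of_heavy_components [Fintype V] [Nonempty V] [Finite E] {ends : E → Sym2 V}
    {k c : ℕ} {γ : ℝ} (hk : 1 ≤ k) (hγ : 0 ≤ γ) (hconn : EdgeConn k ends)
    (hcomp : Nat.card (heavyGraph ends k γ).ConnectedComponent ≤ c + 1) :
    ∃ T : Set E, SpanTree ends T ∧ Thin ((γ + (c : ℝ)) / k) ends T := by
  have hU := underlying_connected hk hconn
  have hHU : heavyGraph ends k γ ≤ SimpleGraph.fromEdgeSet (Set.range ends) :=
    heavyGraph_le ends hk _
  obtain ⟨L, hLU, hLcard, hLconn⟩ := exists_connectors hU c (heavyGraph ends k γ) hHU hcomp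
  have hLrange : L ⊆ Set.range ends := by
    intro z hz
    have := hLU hz
    rw [edgeSet_fromEdgeSet] at this
    exact this.1
  obtain ⟨T, hT, hthin⟩ := exists_thin_of_heavy hk hconn hγ (heavyGraph ends k γ)
    (fun a b h => h.2) L hLrange hLconn
  refine ⟨T, hT, hthin.mono ?_⟩
  have hkpos : (0 : ℝ) < k := by exact_mod_cast hk
  apply div_le_div_of_nonneg_right _ hkpos.le
  have : (L.ncard : ℝ) ≤ c := by exact_mod_cast hLcard
  linarith

end Vale.Agent.Lib.P061
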